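import Vale.Agent.Lib.P064Sep.Main
import Vale.Agent.Lib.P064T.Uniform

/-!
The thresholds under separation. With `P = max (p_E, 1 / n)`, `a = log (1 / P) / log n`: if `m a` stays
`δ` away from `j` for all `1 ≤ j < μ₀`, `m ≥ 1`, the loss per edge is at most `C (log n)^(3 / μ₀)`.
-/

open Finset

namespace Vale.Agent.Lib.P064Sep

open Vale.Agent.Lib.P064 Vale.Agent.Lib.P064E Vale.Agent.Lib.P064U Vale.Agent.Lib.P064T
open scoped Classical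

/-- Separation at `q`, from separation at `P`: the shift `θ = log 4` is small. -/
lemma y_sep_num {δ a L lam θ μ : ℝ} {j m : ℕ} (hδ : 0 < δ) (hδ1 : δ ≤ 1) (ha : δ ≤ a) (hθ : 0 ≤ θ)
    (hL0 : 0 < L) (hμ : 1 ≤ μ) (hL : 4 * (μ + 1) * θ ≤ δ ^ 2 * L) (hlam1 : a * L - θ ≤ lam)
    (hlam2 : lam ≤ a * L) (hsep : δ ≤ |(m : ℝ) * a - j|) (hj : (j : ℝ) + 1 ≤ μ) :
    (δ / 2) * L ≤ |(m : ℝ) * lam - (j : ℝ) * L| := by
  have hm0 : (0 : ℝ) ≤ (m : ℝ) := Nat.cast_nonneg _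
  have hj0 : (0 : ℝ) ≤ (j : ℝ) := Nat.cast_nonneg _
  have hδL : δ ^ 2 * L ≤ δ * L := by
    have h1 : δ ^ 2 ≤ δ := by nlinarith
    exact mul_le_mul_of_nonneg_right h1 hL0.le
  have hδL0 : 0 < δ * L := by positivity
  have hθ8 : 8 * θ ≤ δ * L := by nlinarith
  have hδ2L : δ * L ≤ L := by nlinarith
  rcases le_abs.1 hsep with h | h
  · -- `m a - j ≥ δ`
    refine le_trans ?_ (le_abs_self _)
    by_cases h2 : 2 * μ ≤ (m : ℝ) * a
    · have h3 : (3 / 4) * (a * L) ≤ lam := by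
        have h4 : δ * L ≤ a * L := mul_le_mul_of_nonneg_right ha hL0.le
        linarith
      have h5 : (m : ℝ) * ((3 / 4) * (a * L)) ≤ (m : ℝ) * lam := mul_le_mul_of_nonneg_left h3 hm0
      have h6 : (m : ℝ) * ((3 / 4) * (a * L)) = (3 / 4) * (((m : ℝ) * a) * L) := by ring
      have h7 : (2 * μ) * L ≤ ((m : ℝ) * a) * L := mul_le_mul_of_nonneg_right h2 hL0.le
      have h8 : (j : ℝ) * L ≤ μ * L := mul_le_mul_of_nonneg_right (by linarith) hL0.le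
      have h9 : 1 * L ≤ μ * L := mul_le_mul_of_nonneg_right hμ hL0.le
      nlinarith
    · push Not at h2
      have h3 : (m : ℝ) * δ ≤ (m : ℝ) * a := mul_le_mul_of_nonneg_left ha hm0
      have h4 : (m : ℝ) * θ * δ ≤ 2 * μ * θ := by nlinarith
      have h5 : (m : ℝ) * θ ≤ δ * L / 2 := by
        have h6 : (m : ℝ) * θ * δ ≤ (δ * L / 2) * δ := by nlinarith
        exact le_of_mul_le_mul_right h6 hδ
      have h7 : (m : ℝ) * (a * L - θ) ≤ (m : ℝ) * lam := mul_le_mul_of_nonneg_left hlam1 hm0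
      have h8 : δ * L ≤ ((m : ℝ) * a - j) * L := mul_le_mul_of_nonneg_right h hL0.le
      have h9 : (m : ℝ) * (a * L - θ) = ((m : ℝ) * a) * L - (m : ℝ) * θ := by ring
      have h10 : ((m : ℝ) * a - j) * L = ((m : ℝ) * a) * L - (j : ℝ) * L := by ring
      rw [h9] at h7
      rw [h10] at h8
      have h11 : (δ / 2) * L = δ * L / 2 := by ring
      rw [h11]
      linarith
  · -- `m a - j ≤ - δ`
    refine le_trans ?_ (neg_le_abs _)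
    have h7 : (m : ℝ) * lam ≤ (m : ℝ) * (a * L) := mul_le_mul_of_nonneg_left hlam2 hm0
    have h8 : δ * L ≤ (-((m : ℝ) * a - j)) * L := mul_le_mul_of_nonneg_right h hL0.le
    have h9 : (m : ℝ) * (a * L) = ((m : ℝ) * a) * L := by ring
    have h10 : (-((m : ℝ) * a - j)) * L = (j : ℝ) * L - ((m : ℝ) * a) * L := by ring
    rw [h9] at h7
    rw [h10] at h8
    have h11 : (δ / 2) * L = δ * L / 2 := by ring
    rw [h11]
    linarith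

/-- Separation with `j = 1` forces `a ≥ δ` when `a > 0`. -/
lemma y_a_ge {δ a : ℝ} (ha0 : 0 < a) (h : ∀ m : ℕ, 1 ≤ m → δ ≤ |(m : ℝ) * a - 1|) : δ ≤ a := by
  by_contra hcon
  push Not at hcon
  set m := ⌈1 / a⌉₊ with hm
  have h1 : 1 / a ≤ m := Nat.le_ceil _
  have h2 : (m : ℝ) < 1 / a + 1 := Nat.ceil_lt_add_one (by positivity)
  have h3 : 1 ≤ (m : ℝ) * a := by
    rw [div_le_iff₀ ha0] at h1
    exact h1
  have h4 : (m : ℝ) * a < 1 + a := by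
    have h5 : (m : ℝ) * a < (1 / a + 1) * a := mul_lt_mul_of_pos_right h2 ha0
    have h6 : (1 / a + 1) * a = 1 + a := by
      field_simp
    linarith
  have hm1 : 1 ≤ m := Nat.one_le_ceil_iff.2 (by positivity)
  have h9 := h m hm1
  rw [abs_of_nonneg (by linarith)] at h9
  linarith

/-- A large `L` beats the logarithmic terms. -/
lemma y_big3 {δ μ L : ℝ} (hδ : 0 < δ) (hμ : 0 ≤ μ) (hL0 : 0 < L) (hL : 8 * μ / δ ^ 3 ≤ L) :
    (4 * μ / δ) * L ≤ Real.exp (δ * L) := by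
  have h1 := Real.quadratic_le_exp_of_nonneg (x := δ * L) (by positivity)
  have h2 : 8 * μ ≤ L * δ ^ 3 := by
    rwa [div_le_iff₀ (by positivity)] at hL
  have h3 : (4 * μ / δ) * L ≤ (δ * L) ^ 2 / 2 := by
    have h4 : (4 * μ / δ) * L = (4 * μ * L) / δ := by ring
    rw [h4, div_le_iff₀ hδ]
    have h5 : (8 * μ) * L ≤ (L * δ ^ 3) * L := mul_le_mul_of_nonneg_right h2 hL0.le
    nlinarith
  have h6 : 0 ≤ δ * L := by positivity
  linarith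

/-- The small and the trivial cases of the thresholds. -/
lemma y_small_case {n : ℕ} {V : Type} [Fintype V] {H : SimpleGraph V} {P Y x q C Cu L₀ : ℝ}
    (hV : Fintype.card V ≤ n) (hx1 : 1 ≤ x)
    (hP0 : 0 < P) (hY1 : 1 ≤ Y) (hC0 : 0 < C) (hCu : 0 < Cu) (hL₀1 : 1 ≤ L₀)
    (hCbig : Cu * L₀ + 4 * Real.exp 1 ≤ C) (hq4 : q ≤ 4 * P)
    (hu : pTilde n H ≤ Cu * P * x ^ ((1 : ℝ) / 2 + 1 / 2) ∧
      pc n H ≤ Cu * P * x ^ ((3 : ℝ) / 2 + 1 / 2))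
    (hcase : x < L₀ ∨ Real.exp (-1) < q) :
    pTilde n H ≤ C * (P * Y) ∧ pc n H ≤ C * x * (P * Y) := by
  have hx0 : 0 < x := by linarith
  have hY0 : 0 < Y := by linarith
  have hPY : 0 < P * Y := by positivity
  have hCL : 0 < Cu * L₀ := by positivity
  have hCe : 0 < Real.exp 1 := Real.exp_pos _
  have hPPY : P ≤ P * Y := by nlinarith
  have hbase : C * (P * Y) ≤ C * x * (P * Y) := by
    have h2 : C * (P * Y) * 1 ≤ C * (P * Y) * x :=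
      mul_le_mul_of_nonneg_left hx1 (by positivity)
    nlinarith
  rcases hcase with hxL | hqe
  · -- `x < L₀`
    obtain ⟨hu1, hu2⟩ := hu
    have hexp1 : x ^ ((1 : ℝ) / 2 + 1 / 2) = x := by
      rw [show (1 : ℝ) / 2 + 1 / 2 = 1 by norm_num, Real.rpow_one]
    have hexp2 : x ^ ((3 : ℝ) / 2 + 1 / 2) = x * x := by
      rw [show (3 : ℝ) / 2 + 1 / 2 = 2 by norm_num, Real.rpow_two]
      ring
    rw [hexp1] at hu1
    rw [hexp2] at hu2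
    constructor
    · calc pTilde n H ≤ Cu * P * x := hu1
        _ ≤ Cu * P * L₀ := mul_le_mul_of_nonneg_left hxL.le (by positivity)
        _ = (Cu * L₀) * P := by ring
        _ ≤ C * (P * Y) := by
            apply mul_le_mul (by linarith) hPPY hP0.le hC0.le
    · calc pc n H ≤ Cu * P * (x * x) := hu2
        _ ≤ Cu * P * (L₀ * x) := by
            apply mul_le_mul_of_nonneg_left _ (by positivity)
            exact mul_le_mul_of_nonneg_right hxL.le hx0.le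
        _ = (Cu * L₀) * P * x := by ring
        _ ≤ C * (P * Y) * x := by
            apply mul_le_mul_of_nonneg_right _ hx0.le
            apply mul_le_mul (by linarith) hPPY hP0.le hC0.le
        _ = _ := by ring
  · -- large `q`
    have h1P : 1 ≤ 4 * Real.exp 1 * P := by
      have h2 : Real.exp (-1) * Real.exp 1 = 1 := by
        rw [← Real.exp_add]
        simp
      calc (1 : ℝ) = Real.exp (-1) * Real.exp 1 := h2.symm
        _ ≤ q * Real.exp 1 := mul_le_mul_of_nonneg_right hqe.le hCe.le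
        _ ≤ (4 * P) * Real.exp 1 := mul_le_mul_of_nonneg_right hq4 hCe.le
        _ = _ := by ring
    have h1C : 1 ≤ C * (P * Y) := by
      have h2 : 4 * Real.exp 1 * P ≤ C * (P * Y) := by
        apply mul_le_mul (by linarith) hPPY hP0.le hC0.le
      linarith
    exact ⟨(pTilde_le_one hV).trans h1C, (pc_le_one hV).trans (h1C.trans hbase)⟩

/-- The lower bound on `lam`. -/
lemma y_lam_num {δ a x θ μ lam : ℝ} (hδ0 : 0 < δ) (hδ1 : δ ≤ 1) (hμ : 1 ≤ μ) (hθ : 0 ≤ θ)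
    (hx0 : 0 < x) (hθL : 4 * (μ + 1) * θ ≤ δ ^ 2 * x) (hδa : δ ≤ a) (hlamlo : a * x - θ ≤ lam) :
    (δ / 2) * x ≤ lam := by
  have h2 : δ * x ≤ a * x := mul_le_mul_of_nonneg_right hδa hx0.le
  have h3 : δ ^ 2 ≤ δ := by nlinarith
  have h4 : δ ^ 2 * x ≤ δ * x := mul_le_mul_of_nonneg_right h3 hx0.le
  have h6 : 8 * θ ≤ 4 * (μ + 1) * θ := by
    apply mul_le_mul_of_nonneg_right _ hθ
    linarith
  have h7 : (δ / 2) * x = δ * x / 2 := by ring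
  rw [h7]
  linarith

/-- Separation at `q`. -/
lemma y_ysep {n : ℕ} {q δ a x θ lam : ℝ} {μ₀ : ℕ} (hδ : 0 < δ) (hδ1 : δ ≤ 1) (hμ₀ : 2 ≤ μ₀)
    (hx : x = Real.log n) (hlam : lam = - Real.log q) (hx0 : 0 < x) (hδa : δ ≤ a) (hθ0 : 0 ≤ θ)
    (hθL : 4 * ((μ₀ : ℝ) + 1) * θ ≤ δ ^ 2 * x) (hlamlo : a * x - θ ≤ lam) (hlamhi : lam ≤ a * x)
    (hsep : ∀ j m : ℕ, 1 ≤ j → j < μ₀ → 1 ≤ m → δ ≤ |(m : ℝ) * a - (j : ℝ)|) :
    YSep n q (δ / 2) μ₀ := by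
  have hμR : (2 : ℝ) ≤ μ₀ := by exact_mod_cast hμ₀
  intro j m hj1 hj
  rw [← hx, ← hlam]
  have hjR : (j : ℝ) + 1 ≤ μ₀ := by exact_mod_cast hj
  have hj1R : (1 : ℝ) ≤ j := by exact_mod_cast hj1
  by_cases hm : 1 ≤ m
  · exact y_sep_num hδ hδ1 hδa hθ0 hx0 (by linarith) hθL hlamlo hlamhi (hsep j m hj1 hj hm) hjR
  · have hm0 : m = 0 := by omega
    subst hm0
    simp only [Nat.cast_zero, zero_mul, zero_sub, abs_neg]
    rw [abs_of_nonneg (by positivity)]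
    have h2 : (δ / 2) * x ≤ 1 * x := mul_le_mul_of_nonneg_right (by linarith) hx0.le
    have h3 : 1 * x ≤ (j : ℝ) * x := mul_le_mul_of_nonneg_right hj1R hx0.le
    linarith

/-- The last step: from the embedding bound to the thresholds. -/
lemma y_conclude {n : ℕ} {V : Type} [Fintype V] {H : SimpleGraph V} {δ' P q x Y A C : ℝ} {μ₀ : ℕ}
    (hn2 : 2 ≤ n) (hV : Fintype.card V ≤ n) (hH : H ≠ ⊥) (hx : x = Real.log n) (hx1 : 1 ≤ x)
    (hP0 : 0 < P) (hq0 : 0 < q) (hq4 : q ≤ 4 * P) (hδ'0 : 0 < δ') (hY : Y = x ^ ((3 : ℝ) / μ₀))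
    (hY1 : 1 ≤ Y) (hA : A = (xA * Real.exp 1) ^ 2 * yC δ' μ₀ * 4) (hA0 : 0 < A)
    (hC1 : A ≤ C) (hC2 : 512 * A ≤ C)
    (hemb : EmbBound n H ((xA * Real.exp 1) ^ 2 * yK δ' μ₀ n * q)) :
    pTilde n H ≤ C * (P * Y) ∧ pc n H ≤ C * x * (P * Y) := by
  have hx0 : 0 < x := by linarith
  have hyC := one_le_yC (δ := δ') (μ₀ := μ₀) hδ'0
  have hxA := one_le_xA
  have hKY : yK δ' μ₀ n = yC δ' μ₀ * Y := by
    unfold yK
    rw [hY, ← hx, Real.rpow_def_of_pos hx0]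
    congr 2
    ring
  rw [hKY] at hemb
  obtain ⟨Θ, hΘdef⟩ : ∃ Θ, Θ = (xA * Real.exp 1) ^ 2 * (yC δ' μ₀ * Y) * q := ⟨_, rfl⟩
  rw [← hΘdef] at hemb
  have hyC0 : 0 < yC δ' μ₀ := by linarith
  have hxA0 : 0 < xA := by linarith
  have hY0 : 0 < Y := by linarith
  have hΘ0 : 0 < Θ := by
    rw [hΘdef]
    positivity
  have hPY : 0 < P * Y := by positivity
  have hΘle : Θ ≤ A * (P * Y) := by
    rw [hΘdef, hA]
    have h2 : (xA * Real.exp 1) ^ 2 * (yC δ' μ₀ * Y) * q ≤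
        (xA * Real.exp 1) ^ 2 * (yC δ' μ₀ * Y) * (4 * P) :=
      mul_le_mul_of_nonneg_left hq4 (by positivity)
    calc _ ≤ _ := h2
      _ = _ := by ring
  constructor
  · calc pTilde n H ≤ Θ := pTilde_le_of_embBound hV hΘ0 hemb
      _ ≤ A * (P * Y) := hΘle
      _ ≤ C * (P * Y) := mul_le_mul_of_nonneg_right hC1 hPY.le
  · calc pc n H ≤ 512 * Real.log n * Θ := pc_le_of_embBound hn2 hV hH hΘ0 hemb
      _ = 512 * x * Θ := by rw [hx]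
      _ ≤ 512 * x * (A * (P * Y)) := mul_le_mul_of_nonneg_left hΘle (by positivity)
      _ = (512 * A) * x * (P * Y) := by ring
      _ ≤ C * x * (P * Y) := by
          apply mul_le_mul_of_nonneg_right _ hPY.le
          exact mul_le_mul_of_nonneg_right hC2 hx0.le

/-- The size conditions, for `L ≥ L₀`. -/
lemma y_sizes {δ δ' θ x μ : ℝ} (hδ : 0 < δ) (hδ' : 0 < δ') (hμ : 0 < μ) (hθ0 : 0 ≤ θ) (hx0 : 0 < x)
    (hxL : 4 * (μ + 1) * θ / δ ^ 2 + 4 * μ / δ' ^ 2 + 8 * μ / δ' ^ 3 + 1 ≤ x) :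
    4 * (μ + 1) * θ ≤ δ ^ 2 * x ∧ 4 * μ ≤ δ' ^ 2 * x ∧ (4 * μ / δ') * x ≤ Real.exp (δ' * x) := by
  have hL1 : 0 ≤ 4 * (μ + 1) * θ / δ ^ 2 := by positivity
  have hL2 : 0 ≤ 4 * μ / δ' ^ 2 := by positivity
  have hL3 : 0 ≤ 8 * μ / δ' ^ 3 := by positivity
  have hδ2 : 0 < δ ^ 2 := by positivity
  have hδ'2 : 0 < δ' ^ 2 := by positivity
  refine ⟨?_, ?_, ?_⟩
  · have h2 : 4 * (μ + 1) * θ / δ ^ 2 ≤ x := by linarith
    rw [div_le_iff₀ hδ2] at h2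
    linarith [mul_comm x (δ ^ 2)]
  · have h2 : 4 * μ / δ' ^ 2 ≤ x := by linarith
    rw [div_le_iff₀ hδ'2] at h2
    linarith [mul_comm x (δ' ^ 2)]
  · exact y_big3 hδ' hμ.le hx0 (by linarith)

/-- The constant of the main case. -/
noncomputable def yC2 (μ₀ : ℕ) : ℝ :=
  Real.exp 6 * (8 * (33 * ((μ₀ : ℝ) + 1)) ^ 3 * Real.exp 2)

lemma yC2_pos (μ₀ : ℕ) : 0 < yC2 μ₀ := by
  unfold yC2
  have : (0 : ℝ) ≤ μ₀ := Nat.cast_nonneg _
  positivity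

/-- The dependence of the constant on `δ`. -/
lemma yC_le {δ : ℝ} (hδ0 : 0 < δ) (hδ1 : δ ≤ 1) (μ₀ : ℕ) :
    yC δ μ₀ ≤ yC2 μ₀ * (1 / δ ^ 6) := by
  have hμ : (0 : ℝ) ≤ μ₀ := Nat.cast_nonneg _
  obtain ⟨B, hB⟩ : ∃ B : ℝ, B = 33 * ((μ₀ : ℝ) + 1) / δ ^ 2 := ⟨_, rfl⟩
  have hδ2 : 0 < δ ^ 2 := by positivity
  have hδ21 : δ ^ 2 ≤ 1 := by nlinarith
  have hB1 : 1 ≤ B := by
    rw [hB, le_div_iff₀ hδ2]
    nlinarith
  have hD : (yD δ μ₀ : ℝ) ≤ B := by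
    unfold yD
    have h1 := Nat.ceil_lt_add_one (a := (1 / δ + 1) / (δ / (16 * ((μ₀ : ℝ) + 1)))) (by positivity)
    have h2 : (1 / δ + 1) / (δ / (16 * ((μ₀ : ℝ) + 1))) = (1 + δ) * (16 * ((μ₀ : ℝ) + 1)) / δ ^ 2 := by
      field_simp
    have h3 : (1 + δ) * (16 * ((μ₀ : ℝ) + 1)) / δ ^ 2 ≤ 32 * ((μ₀ : ℝ) + 1) / δ ^ 2 := by
      apply div_le_div_of_nonneg_right _ hδ2.le
      nlinarith
    have h4 : 1 ≤ ((μ₀ : ℝ) + 1) / δ ^ 2 := by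
      rw [le_div_iff₀ hδ2]
      nlinarith
    have h5 : B = 32 * ((μ₀ : ℝ) + 1) / δ ^ 2 + ((μ₀ : ℝ) + 1) / δ ^ 2 := by
      rw [hB]
      ring
    rw [h2] at h1
    rw [h5, h2]
    linarith
  have hD0 : (0 : ℝ) ≤ (yD δ μ₀ : ℝ) := Nat.cast_nonneg _
  have hC : xCc (yD δ μ₀) ≤ 8 * B ^ 3 * Real.exp 2 := by
    unfold xCc
    have h1 : ((yD δ μ₀ : ℝ) + 1) ^ 2 ≤ (2 * B) ^ 2 := pow_le_pow_left₀ (by linarith) (by linarith) 2
    have h2 : ((yD δ μ₀ : ℝ) + 1) ^ 2 * (2 * (yD δ μ₀ : ℝ)) ≤ (2 * B) ^ 2 * (2 * B) :=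
      mul_le_mul h1 (by linarith) (by positivity) (by positivity)
    have h3 : (2 * B) ^ 2 * (2 * B) = 8 * B ^ 3 := by ring
    rw [h3] at h2
    exact mul_le_mul_of_nonneg_right h2 (Real.exp_pos _).le
  unfold yC
  have hB3 : B ^ 3 = (33 * ((μ₀ : ℝ) + 1)) ^ 3 * (1 / δ ^ 6) := by
    rw [hB]
    field_simp
  calc Real.exp 6 * xCc (yD δ μ₀) ≤ Real.exp 6 * (8 * B ^ 3 * Real.exp 2) :=
        mul_le_mul_of_nonneg_left hC (Real.exp_pos _).le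
    _ = _ := by
        rw [hB3]
        unfold yC2
        ring

/-- The powers of `1 / δ`. -/
lemma y_inv_pow {δ : ℝ} (hδ0 : 0 < δ) (hδ1 : δ ≤ 1) {k : ℕ} (hk : k ≤ 6) :
    1 / δ ^ k ≤ 1 / δ ^ 6 := by
  apply div_le_div_of_nonneg_left (by norm_num) (by positivity)
  exact pow_le_pow_of_le_one hδ0.le hδ1 hk

/-- The size below which the trivial bound is used. -/
noncomputable def yL0 (δ : ℝ) (μ₀ : ℕ) : ℝ :=
  4 * ((μ₀ : ℝ) + 1) * Real.log 4 / δ ^ 2 + 4 * (μ₀ : ℝ) / (δ / 2) ^ 2 +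
    8 * (μ₀ : ℝ) / (δ / 2) ^ 3 + 1

/-- The constant of the small case. -/
noncomputable def yC3 (μ₀ : ℕ) : ℝ :=
  4 * ((μ₀ : ℝ) + 1) * Real.log 4 + 16 * (μ₀ : ℝ) + 64 * (μ₀ : ℝ) + 1

lemma yL0_le {δ : ℝ} (hδ0 : 0 < δ) (hδ1 : δ ≤ 1) (μ₀ : ℕ) :
    yL0 δ μ₀ ≤ yC3 μ₀ * (1 / δ ^ 6) := by
  have hμ : (0 : ℝ) ≤ μ₀ := Nat.cast_nonneg _
  have hl4 : 0 ≤ Real.log 4 := Real.log_nonneg (by norm_num)
  have h2 := y_inv_pow hδ0 hδ1 (k := 2) (by norm_num)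
  have h3 := y_inv_pow hδ0 hδ1 (k := 3) (by norm_num)
  have h0 := y_inv_pow hδ0 hδ1 (k := 0) (by norm_num)
  simp only [pow_zero, div_one] at h0
  have e1 : 4 * ((μ₀ : ℝ) + 1) * Real.log 4 / δ ^ 2 =
      (4 * ((μ₀ : ℝ) + 1) * Real.log 4) * (1 / δ ^ 2) := by ring
  have e2 : 4 * (μ₀ : ℝ) / (δ / 2) ^ 2 = (16 * (μ₀ : ℝ)) * (1 / δ ^ 2) := by
    field_simp
    ring
  have e3 : 8 * (μ₀ : ℝ) / (δ / 2) ^ 3 = (64 * (μ₀ : ℝ)) * (1 / δ ^ 3) := by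
    field_simp
    ring
  unfold yL0 yC3
  rw [e1, e2, e3]
  have a1 : (4 * ((μ₀ : ℝ) + 1) * Real.log 4) * (1 / δ ^ 2) ≤
      (4 * ((μ₀ : ℝ) + 1) * Real.log 4) * (1 / δ ^ 6) :=
    mul_le_mul_of_nonneg_left h2 (by positivity)
  have a2 : (16 * (μ₀ : ℝ)) * (1 / δ ^ 2) ≤ (16 * (μ₀ : ℝ)) * (1 / δ ^ 6) :=
    mul_le_mul_of_nonneg_left h2 (by positivity)
  have a3 : (64 * (μ₀ : ℝ)) * (1 / δ ^ 3) ≤ (64 * (μ₀ : ℝ)) * (1 / δ ^ 6) :=
    mul_le_mul_of_nonneg_left h3 (by positivity)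
  have e4 : (4 * ((μ₀ : ℝ) + 1) * Real.log 4 + 16 * (μ₀ : ℝ) + 64 * (μ₀ : ℝ) + 1) * (1 / δ ^ 6) =
      (4 * ((μ₀ : ℝ) + 1) * Real.log 4) * (1 / δ ^ 6) + (16 * (μ₀ : ℝ)) * (1 / δ ^ 6) +
        (64 * (μ₀ : ℝ)) * (1 / δ ^ 6) + 1 / δ ^ 6 := by ring
  rw [e4]
  linarith

/-- The thresholds under separation, with the dependence on `δ`. -/
theorem y_thresholds_delta (μ₀ : ℕ) (hμ₀ : 2 ≤ μ₀) :
    ∃ C : ℝ, 0 < C ∧ ∀ n : ℕ, 3 ≤ n → ∀ (V : Type) [Fintype V] (H : SimpleGraph V),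
      Fintype.card V ≤ n → H ≠ ⊥ →
      ∀ a : ℝ, a = Real.log (1 / max (pE n H) (1 / (n : ℝ))) / Real.log n →
      ∀ δ : ℝ, 0 < δ → δ ≤ 1 →
      (∀ j m : ℕ, 1 ≤ j → j < μ₀ → 1 ≤ m → δ ≤ |(m : ℝ) * a - (j : ℝ)|) →
      pTilde n H ≤ C * (1 / δ ^ 6) * (max (pE n H) (1 / (n : ℝ)) * (Real.log n) ^ ((3 : ℝ) / μ₀)) ∧
      pc n H ≤ C * (1 / δ ^ 6) * Real.log n *
        (max (pE n H) (1 / (n : ℝ)) * (Real.log n) ^ ((3 : ℝ) / μ₀)) := by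
  have hμR : (2 : ℝ) ≤ μ₀ := by exact_mod_cast hμ₀
  have hμ0 : (0 : ℝ) < μ₀ := by linarith
  obtain ⟨Cu, hCu, hunif⟩ := thresholds_uniform (1 / 2) (by norm_num)
  obtain ⟨θ, hθ⟩ : ∃ θ : ℝ, θ = Real.log 4 := ⟨_, rfl⟩
  have hθ0 : 0 ≤ θ := by
    rw [hθ]
    exact Real.log_nonneg (by norm_num)
  have hxA := one_le_xA
  have hCe : 0 < Real.exp 1 := Real.exp_pos _
  obtain ⟨G, hGdef⟩ : ∃ G : ℝ, G = (xA * Real.exp 1) ^ 2 * (yC2 μ₀ * 64) * 4 := ⟨_, rfl⟩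
  have hG0 : 0 < G := by
    rw [hGdef]
    have h1 := yC2_pos μ₀
    have h2 : 0 < xA := by linarith
    positivity
  have hC3 : 0 ≤ yC3 μ₀ := by
    unfold yC3
    have : 0 ≤ Real.log 4 := Real.log_nonneg (by norm_num)
    have : (0 : ℝ) ≤ μ₀ := Nat.cast_nonneg _
    positivity
  obtain ⟨C', hC'⟩ : ∃ C' : ℝ, C' = 512 * G + Cu * yC3 μ₀ + 4 * Real.exp 1 + 1 := ⟨_, rfl⟩
  have hC3' : 0 ≤ Cu * yC3 μ₀ := by positivity
  have hC'0 : 0 < C' := by rw [hC']; linarith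
  refine ⟨C', hC'0, ?_⟩
  intro n hn V _ H hV hH a ha δ hδ hδ1 hsep
  obtain ⟨r, hr⟩ : ∃ r : ℝ, r = 1 / δ ^ 6 := ⟨_, rfl⟩
  rw [← hr]
  have hr1 : 1 ≤ r := by
    have h1 := y_inv_pow hδ hδ1 (k := 0) (by norm_num)
    simp only [pow_zero, div_one] at h1
    rw [hr]
    exact h1
  obtain ⟨C, hC⟩ : ∃ C : ℝ, C = C' * r := ⟨_, rfl⟩
  rw [← hC]
  have hC0 : 0 < C := by rw [hC]; positivity
  obtain ⟨δ', hδ'⟩ : ∃ δ' : ℝ, δ' = δ / 2 := ⟨_, rfl⟩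
  have hδ'0 : 0 < δ' := by rw [hδ']; positivity
  have hδ'1 : δ' ≤ 1 := by rw [hδ']; linarith
  obtain ⟨L₀, hL₀⟩ : ∃ L₀ : ℝ, L₀ = yL0 δ μ₀ := ⟨_, rfl⟩
  have hL₀1 : 1 ≤ L₀ := by
    rw [hL₀]
    unfold yL0
    have h0 : 0 ≤ Real.log 4 := Real.log_nonneg (by norm_num)
    have hL1 : 0 ≤ 4 * ((μ₀ : ℝ) + 1) * Real.log 4 / δ ^ 2 := by positivity
    have hL2 : 0 ≤ 4 * (μ₀ : ℝ) / (δ / 2) ^ 2 := by positivity
    have hL3 : 0 ≤ 8 * (μ₀ : ℝ) / (δ / 2) ^ 3 := by positivity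
    linarith
  have hL₀C : Cu * L₀ + 4 * Real.exp 1 ≤ C := by
    have h1 : L₀ ≤ yC3 μ₀ * r := by
      rw [hL₀, hr]
      exact yL0_le hδ hδ1 μ₀
    have h2 : Cu * L₀ ≤ Cu * (yC3 μ₀ * r) := mul_le_mul_of_nonneg_left h1 hCu.le
    have h3 : 4 * Real.exp 1 * 1 ≤ 4 * Real.exp 1 * r := mul_le_mul_of_nonneg_left hr1 (by positivity)
    have h4 : 0 ≤ 512 * G * r := by positivity
    have h5 : C = 512 * G * r + Cu * yC3 μ₀ * r + 4 * Real.exp 1 * r + r := by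
      rw [hC, hC']
      ring
    rw [h5]
    have h6 : Cu * (yC3 μ₀ * r) = Cu * yC3 μ₀ * r := by ring
    linarith
  obtain ⟨A, hA⟩ : ∃ A : ℝ, A = (xA * Real.exp 1) ^ 2 * yC δ' μ₀ * 4 := ⟨_, rfl⟩
  have hyC := one_le_yC (δ := δ') (μ₀ := μ₀) hδ'0
  have hA0 : 0 < A := by
    rw [hA]
    have : 0 < xA := by linarith
    have : 0 < yC δ' μ₀ := by linarith
    positivity
  have hAG : A ≤ G * r := by
    have h1 : yC δ' μ₀ ≤ yC2 μ₀ * (1 / δ' ^ 6) := yC_le hδ'0 hδ'1 μ₀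
    have h2 : 1 / δ' ^ 6 = 64 * r := by
      rw [hδ', hr]
      field_simp
      norm_num
    rw [h2] at h1
    rw [hA, hGdef]
    have h3 : 0 ≤ (xA * Real.exp 1) ^ 2 := by positivity
    calc (xA * Real.exp 1) ^ 2 * yC δ' μ₀ * 4 ≤ (xA * Real.exp 1) ^ 2 * (yC2 μ₀ * (64 * r)) * 4 := by
          apply mul_le_mul_of_nonneg_right _ (by norm_num)
          exact mul_le_mul_of_nonneg_left h1 h3
      _ = _ := by ring
  have hrest : 0 ≤ Cu * yC3 μ₀ * r + 4 * Real.exp 1 * r + r := by positivity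
  have hCA : 512 * A ≤ C := by
    have h5 : C = 512 * (G * r) + (Cu * yC3 μ₀ * r + 4 * Real.exp 1 * r + r) := by
      rw [hC, hC']
      ring
    rw [h5]
    linarith
  have hCA1 : A ≤ C := by linarith
  obtain ⟨ι⟩ : Nonempty (V ↪ Fin n) :=
    Function.Embedding.nonempty_of_card_le (by simpa using hV)
  have hn2 : 2 ≤ n := by omega
  have hnR : (3 : ℝ) ≤ n := by exact_mod_cast hn
  have hn0 : (0 : ℝ) < n := by linarith
  obtain ⟨x, hx⟩ : ∃ x, x = Real.log n := ⟨_, rfl⟩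
  rw [← hx] at ha ⊢
  have hx1 : 1 ≤ x := by
    rw [hx, Real.le_log_iff_exp_le hn0]
    have := Real.exp_one_lt_d9
    linarith
  have hx0 : 0 < x := by linarith
  have hE0 := pE_pos hn2 hV hH
  have hu := hunif n hn V H hV hH
  rw [← hx] at hu
  obtain ⟨P, hP⟩ : ∃ P, P = max (pE n H) (1 / (n : ℝ)) := ⟨_, rfl⟩
  rw [← hP] at ha hu ⊢
  have hP0 : 0 < P := by rw [hP]; exact lt_max_of_lt_left hE0
  have hPE : pE n H ≤ P := by rw [hP]; exact le_max_left _ _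
  have hPn : 1 / (n : ℝ) ≤ P := by rw [hP]; exact le_max_right _ _
  have hax : a * x = Real.log (1 / P) := by
    rw [ha]
    field_simp
  have hlt : pE n H < 2 * pE n H := by linarith
  obtain ⟨p, ⟨h0, h1, hp⟩, hp2⟩ := exists_lt_of_csInf_lt (pE_set_nonempty (H := H) ι) hlt
  have hpE : pE n H ≤ p := csInf_le ⟨0, fun _ hy => hy.1⟩ ⟨h0, h1, hp⟩
  have hp0 : 0 < p := by linarith
  have hG₀ : GoodDensity n (2 * p) H := good_of_subgraphs h0 h1 hp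
  obtain ⟨q, hq⟩ : ∃ q, q = max (2 * p) (1 / (n : ℝ)) := ⟨_, rfl⟩
  have hq0 : 0 < q := by rw [hq]; exact lt_max_of_lt_right (by positivity)
  have hq4 : q ≤ 4 * P := by
    rw [hq]
    apply max_le
    · linarith
    · linarith
  have hqn : 1 / (n : ℝ) ≤ q := by rw [hq]; exact le_max_right _ _
  have hPq : P ≤ q := by
    rw [hP]
    apply max_le
    · have : 2 * p ≤ q := by rw [hq]; exact le_max_left _ _
      linarith
    · exact hqn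
  have hG' : GoodDensity n q H := good_mono (by positivity) (by rw [hq]; exact le_max_left _ _) hG₀
  obtain ⟨Y, hY⟩ : ∃ Y, Y = x ^ ((3 : ℝ) / μ₀) := ⟨_, rfl⟩
  have hY1 : 1 ≤ Y := by
    rw [hY]
    exact Real.one_le_rpow hx1 (by positivity)
  rw [← hY]
  by_cases hcase : x < L₀ ∨ Real.exp (-1) < q
  · exact y_small_case hV hx1 hP0 hY1 hC0 hCu hL₀1 hL₀C hq4 hu hcase
  · push Not at hcase
    obtain ⟨hxL, hqe⟩ := hcase
    have hlamq : 1 ≤ - Real.log q := by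
      have := Real.log_le_log hq0 hqe
      rw [Real.log_exp] at this
      linarith
    obtain ⟨lam, hlam⟩ : ∃ lam, lam = - Real.log q := ⟨_, rfl⟩
    rw [← hlam] at hlamq
    have hlamhi : lam ≤ a * x := by
      rw [hax, hlam, one_div, Real.log_inv]
      have := Real.log_le_log hP0 hPq
      linarith
    have hlamlo : a * x - θ ≤ lam := by
      rw [hax, hlam, hθ, one_div, Real.log_inv]
      have h2 := Real.log_le_log hq0 hq4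
      rw [Real.log_mul (by norm_num) hP0.ne'] at h2
      linarith
    have ha0 : 0 < a := by
      by_contra hc
      push Not at hc
      have h2 : a * x ≤ 0 := mul_nonpos_of_nonpos_of_nonneg hc hx0.le
      linarith
    have hδa : δ ≤ a := y_a_ge ha0 (fun m hm => by
      have h2 := hsep 1 m le_rfl (by omega) hm
      simpa using h2)
    obtain ⟨hθL, hbig, hbig3⟩ := y_sizes (δ := δ) (δ' := δ') (θ := θ) (x := x) (μ := μ₀) hδ hδ'0 hμ0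
      hθ0 hx0 (by rw [hL₀] at hxL; unfold yL0 at hxL; rw [hδ', hθ]; exact hxL)
    have hlamδ : δ' * x ≤ lam := by
      rw [hδ']
      exact y_lam_num hδ hδ1 (by linarith) hθ0 hx0 hθL hδa hlamlo
    have hYsep : YSep n q δ' μ₀ := by
      rw [hδ']
      exact y_ysep hδ hδ1 hμ₀ hx hlam hx0 hδa hθ0 hθL hlamlo hlamhi hsep
    have hD : 1 ≤ (n : ℝ) * q := by
      rw [div_le_iff₀ hn0] at hqn
      linarith [mul_comm (n : ℝ) q]
    have hemb := embBound_y (δ := δ') (μ₀ := μ₀) hG' hn2 hV hq0 hqe (by rw [← hx]; exact hx1) hD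
      hδ'0 hδ'1 hμ₀ (by rw [← hx, ← hlam]; exact hlamδ) hYsep (by rw [← hx]; exact hbig)
      (by rw [← hx]; exact hbig3)
    exact y_conclude hn2 hV hH hx hx1 hP0 hq0 hq4 hδ'0 hY hY1 hA hA0 hCA1 (by linarith) hemb

/-- Near a real number `a₀ > 0` such that `m a₀` is never an integer below `μ₀`. -/
theorem y_local (μ₀ : ℕ) (hμ₀ : 2 ≤ μ₀) {a₀ : ℝ} (ha₀ : 0 < a₀)
    (hne : ∀ j m : ℕ, 1 ≤ j → j < μ₀ → 1 ≤ m → (m : ℝ) * a₀ ≠ (j : ℝ)) :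
    ∃ η C : ℝ, 0 < η ∧ 0 < C ∧ ∀ n : ℕ, 3 ≤ n → ∀ (V : Type) [Fintype V] (H : SimpleGraph V),
      Fintype.card V ≤ n → H ≠ ⊥ →
      ∀ a : ℝ, a = Real.log (1 / max (pE n H) (1 / (n : ℝ))) / Real.log n → |a - a₀| ≤ η →
      pTilde n H ≤ C * (max (pE n H) (1 / (n : ℝ)) * (Real.log n) ^ ((3 : ℝ) / μ₀)) ∧
      pc n H ≤ C * Real.log n * (max (pE n H) (1 / (n : ℝ)) * (Real.log n) ^ ((3 : ℝ) / μ₀)) := by
  obtain ⟨C₀, hC₀, hmain⟩ := y_thresholds_delta μ₀ hμ₀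
  have hμ0 : (0 : ℝ) ≤ μ₀ := Nat.cast_nonneg _
  -- the finitely many relevant pairs
  obtain ⟨M₀, hM₀⟩ : ∃ M₀ : ℕ, M₀ = ⌈2 * ((μ₀ : ℝ) + 1) / a₀⌉₊ := ⟨_, rfl⟩
  have hM₀R : 2 * ((μ₀ : ℝ) + 1) / a₀ ≤ M₀ := by
    rw [hM₀]
    exact Nat.le_ceil _
  have hM₀0 : (0 : ℝ) ≤ M₀ := Nat.cast_nonneg _
  let S : Finset (ℕ × ℕ) := (Finset.Icc 1 μ₀ ×ˢ Finset.Icc 1 M₀).filter (fun p => p.1 < μ₀)
  have hpos : ∀ p ∈ S, 0 < |(p.2 : ℝ) * a₀ - (p.1 : ℝ)| := by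
    intro p hp
    obtain ⟨h1, h2⟩ := Finset.mem_filter.1 hp
    obtain ⟨h3, h4⟩ := Finset.mem_product.1 h1
    apply abs_pos.2
    intro h5
    exact hne p.1 p.2 (Finset.mem_Icc.1 h3).1 h2 (Finset.mem_Icc.1 h4).1 (sub_eq_zero.1 h5)
  obtain ⟨δ₁, hδ₁0, hδ₁⟩ : ∃ δ₁ : ℝ, 0 < δ₁ ∧ ∀ p ∈ S, δ₁ ≤ |(p.2 : ℝ) * a₀ - (p.1 : ℝ)| := by
    rcases S.eq_empty_or_nonempty with hS | hS
    · refine ⟨1, one_pos, ?_⟩
      rw [hS]
      simp
    · obtain ⟨p, hp, hmin⟩ := S.exists_min_image (fun p => |(p.2 : ℝ) * a₀ - (p.1 : ℝ)|) hS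
      exact ⟨_, hpos p hp, hmin⟩
  obtain ⟨δ, hδdef⟩ : ∃ δ : ℝ, δ = min (δ₁ / 2) 1 := ⟨_, rfl⟩
  have hδ0 : 0 < δ := by
    rw [hδdef]
    exact lt_min (by positivity) one_pos
  have hδ1 : δ ≤ 1 := by
    rw [hδdef]
    exact min_le_right _ _
  have hδ2 : δ ≤ δ₁ / 2 := by
    rw [hδdef]
    exact min_le_left _ _
  obtain ⟨η, hηdef⟩ : ∃ η : ℝ, η = min (a₀ / 2) (δ₁ / (2 * ((M₀ : ℝ) + 1))) := ⟨_, rfl⟩
  have hη0 : 0 < η := by
    rw [hηdef]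
    exact lt_min (by positivity) (by positivity)
  have hη1 : η ≤ a₀ / 2 := by
    rw [hηdef]
    exact min_le_left _ _
  have hη2 : η ≤ δ₁ / (2 * ((M₀ : ℝ) + 1)) := by
    rw [hηdef]
    exact min_le_right _ _
  refine ⟨η, C₀ * (1 / δ ^ 6), hη0, by positivity, ?_⟩
  intro n hn V _ H hV hH a ha hnear
  refine hmain n hn V H hV hH a ha δ hδ0 hδ1 ?_
  intro j m hj1 hj hm
  have hna := abs_le.1 hnear
  have hm0 : (0 : ℝ) ≤ m := Nat.cast_nonneg _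
  by_cases hmM : m ≤ M₀
  · have hp : (j, m) ∈ S := by
      refine Finset.mem_filter.2 ⟨Finset.mem_product.2 ⟨?_, ?_⟩, hj⟩
      · exact Finset.mem_Icc.2 ⟨hj1, hj.le⟩
      · exact Finset.mem_Icc.2 ⟨hm, hmM⟩
    have h1 := hδ₁ _ hp
    simp only at h1
    have hmR : (m : ℝ) ≤ M₀ := by exact_mod_cast hmM
    have h2 : (m : ℝ) * η ≤ δ₁ / 2 := by
      have h3 : (m : ℝ) * η ≤ ((M₀ : ℝ) + 1) * (δ₁ / (2 * ((M₀ : ℝ) + 1))) :=
        mul_le_mul (by linarith) hη2 hη0.le (by positivity)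
      have h4 : ((M₀ : ℝ) + 1) * (δ₁ / (2 * ((M₀ : ℝ) + 1))) = δ₁ / 2 := by
        field_simp
      linarith
    have h5 : |(m : ℝ) * a₀ - (j : ℝ)| ≤ |(m : ℝ) * a - (j : ℝ)| + (m : ℝ) * η := by
      have h6 : (m : ℝ) * a₀ - (j : ℝ) = ((m : ℝ) * a - (j : ℝ)) + (m : ℝ) * (a₀ - a) := by ring
      rw [h6]
      refine (abs_add_le _ _).trans ?_
      apply add_le_add_right
      rw [abs_mul, abs_of_nonneg hm0]
      apply mul_le_mul_of_nonneg_left _ hm0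
      rw [abs_sub_comm]
      exact hnear
    linarith
  · push Not at hmM
    have hmR : (M₀ : ℝ) < m := by exact_mod_cast hmM
    have h1 : a₀ / 2 ≤ a := by linarith [hna.1]
    have h2 : 2 * ((μ₀ : ℝ) + 1) / a₀ * (a₀ / 2) = (μ₀ : ℝ) + 1 := by
      field_simp
    have h3 : (μ₀ : ℝ) + 1 ≤ (m : ℝ) * a := by
      rw [← h2]
      exact mul_le_mul (by linarith) h1 (by positivity) hm0
    have hjR : (j : ℝ) + 1 ≤ μ₀ := by exact_mod_cast hj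
    have h4 : 1 ≤ |(m : ℝ) * a - (j : ℝ)| := by
      refine le_trans ?_ (le_abs_self _)
      linarith
    linarith

/-- Near an irrational number. -/
theorem y_irrational {a₀ : ℝ} (hirr : Irrational a₀) (ha₀ : 0 < a₀) {ε : ℝ} (hε : 0 < ε) :
    ∃ η C : ℝ, 0 < η ∧ 0 < C ∧ ∀ n : ℕ, 3 ≤ n → ∀ (V : Type) [Fintype V] (H : SimpleGraph V),
      Fintype.card V ≤ n → H ≠ ⊥ →
      ∀ a : ℝ, a = Real.log (1 / max (pE n H) (1 / (n : ℝ))) / Real.log n → |a - a₀| ≤ η →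
      pTilde n H ≤ C * (max (pE n H) (1 / (n : ℝ)) * (Real.log n) ^ ε) ∧
      pc n H ≤ C * Real.log n * (max (pE n H) (1 / (n : ℝ)) * (Real.log n) ^ ε) := by
  obtain ⟨μ₀, hμ₀⟩ : ∃ μ₀ : ℕ, μ₀ = max 2 ⌈3 / ε⌉₊ := ⟨_, rfl⟩
  have hμ2 : 2 ≤ μ₀ := by
    rw [hμ₀]
    exact le_max_left _ _
  have hμ3 : 3 / ε ≤ μ₀ := by
    have h1 : ⌈3 / ε⌉₊ ≤ μ₀ := by
      rw [hμ₀]
      exact le_max_right _ _
    have h2 : ((⌈3 / ε⌉₊ : ℕ) : ℝ) ≤ μ₀ := by exact_mod_cast h1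
    exact (Nat.le_ceil _).trans h2
  have hμ0 : (0 : ℝ) < μ₀ := by
    have : (2 : ℝ) ≤ μ₀ := by exact_mod_cast hμ2
    linarith
  have hexp : (3 : ℝ) / μ₀ ≤ ε := by
    rw [div_le_iff₀ hμ0]
    rw [div_le_iff₀ hε] at hμ3
    linarith
  obtain ⟨η, C, hη, hC, h⟩ := y_local μ₀ hμ2 ha₀ (a₀ := a₀) (fun j m _ _ hm h1 => by
    have h2 : Irrational ((m : ℝ) * a₀) := hirr.natCast_mul (by omega)
    exact h2.ne_nat j h1)
  refine ⟨η, C, hη, hC, ?_⟩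
  intro n hn V _ H hV hH a ha hnear
  obtain ⟨h1, h2⟩ := h n hn V H hV hH a ha hnear
  have hnR : (3 : ℝ) ≤ n := by exact_mod_cast hn
  have hL : 1 ≤ Real.log n := by
    rw [Real.le_log_iff_exp_le (by linarith)]
    have := Real.exp_one_lt_d9
    linarith
  have hP0 : 0 ≤ max (pE n H) (1 / (n : ℝ)) := le_max_of_le_right (by positivity)
  have hpow : (Real.log n) ^ ((3 : ℝ) / μ₀) ≤ (Real.log n) ^ ε :=
    Real.rpow_le_rpow_of_exponent_le hL hexp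
  have hmul : max (pE n H) (1 / (n : ℝ)) * (Real.log n) ^ ((3 : ℝ) / μ₀) ≤
      max (pE n H) (1 / (n : ℝ)) * (Real.log n) ^ ε := mul_le_mul_of_nonneg_left hpow hP0
  constructor
  · exact h1.trans (mul_le_mul_of_nonneg_left hmul hC.le)
  · exact h2.trans (mul_le_mul_of_nonneg_left hmul (by positivity))

/-- Near a rational number with numerator `r`. -/
theorem y_rational {r s : ℕ} (hr : 2 ≤ r) (hs : 1 ≤ s) (hcop : Nat.Coprime r s) :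
    ∃ η C : ℝ, 0 < η ∧ 0 < C ∧ ∀ n : ℕ, 3 ≤ n → ∀ (V : Type) [Fintype V] (H : SimpleGraph V),
      Fintype.card V ≤ n → H ≠ ⊥ →
      ∀ a : ℝ, a = Real.log (1 / max (pE n H) (1 / (n : ℝ))) / Real.log n →
      |a - (r : ℝ) / s| ≤ η →
      pTilde n H ≤ C * (max (pE n H) (1 / (n : ℝ)) * (Real.log n) ^ ((3 : ℝ) / r)) ∧
      pc n H ≤ C * Real.log n * (max (pE n H) (1 / (n : ℝ)) * (Real.log n) ^ ((3 : ℝ) / r)) := by
  have hr0 : (0 : ℝ) < r := by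
    have : (2 : ℝ) ≤ r := by exact_mod_cast hr
    linarith
  have hs0 : (0 : ℝ) < s := by
    have : (1 : ℝ) ≤ s := by exact_mod_cast hs
    linarith
  refine y_local r hr (a₀ := (r : ℝ) / s) (by positivity) ?_
  intro j m hj1 hj _ h1
  have h2 : (m : ℝ) * r = (j : ℝ) * s := by
    field_simp at h1
    linarith
  have h3 : m * r = j * s := by exact_mod_cast h2
  have h4 : r ∣ j * s := ⟨m, by rw [← h3]; ring⟩
  have h5 : r ∣ j := hcop.dvd_of_dvd_mul_right h4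
  have h6 := Nat.le_of_dvd (by omega) h5
  omega

end Vale.Agent.Lib.P064Sep
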