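import Vale.Agent.Lib.P064X.Pre

/-!
A minimal set without entering arc: the capacity inequality with the number of touching edges kept.
-/

open Finset

namespace Vale.Agent.Lib.P064

open scoped Classical

open Vale.Agent.Lib.P064N

variable {V α : Type} [Fintype V] [Fintype α] {H : SimpleGraph V} {F : SimpleGraph α} {n : ℕ}
  {q : ℝ}

/-- As `xminPre_large`, without using the lower bound on the number of touching edges: with
`m = eT F (Y ∪ P) J`, `M m + T |J| ≤ c |J| + T (m + 1)`. -/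
theorem yminPre_large {w : V → V → ℕ} {M c T : ℕ}
    (hw : ∀ a b, H.Adj a b → w a b + w b a = M) (hs : ∀ a, ∑ b, w a b ≤ c)
    (hq0 : 0 < q) (hqe : q ≤ Real.exp (-1)) (hD : 1 ≤ (n : ℝ) * q)
    {Y P J : Finset α} (hdisj : Disjoint P Y) (hJP : J ⊆ P)
    {Dg : α → α → Prop} (hDgF : ∀ u v, Dg u v → F.Adj u v)
    {φ : α → V} (hφ : Function.Injective φ) (hhom : ∀ u v, F.Adj u v → H.Adj (φ u) (φ v))
    (hDg2 : ∀ u v, (u, v) ∈ xDom F Y P → ArcT H w T (φ u) (φ v) → Dg u v)
    (hmin : XMinPre Dg J) (hlow : Low n q F (Y ∪ P) J) :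
    M * eT F (Y ∪ P) J + T * J.card ≤ c * J.card + T * (eT F (Y ∪ P) J + 1) := by
  obtain ⟨hne, hpre, hminJ⟩ := hmin
  set W := Y ∪ P with hW
  set E := W \ J with hE
  have hdj : Disjoint J E := Finset.disjoint_sdiff
  -- the arcs of the capacity inequality
  set R : Finset (α × α) := univ.filter (fun d => F.Adj d.1 d.2 ∧ ArcT H w T (φ d.1) (φ d.2))
    with hR
  have hEarc : ∀ u v, (u, v) ∈ R → u ∈ E → v ∉ J := by
    intro u v huv hu hv
    obtain ⟨_, hadj, harc⟩ := Finset.mem_filter.1 huv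
    have huW : u ∈ W := (Finset.mem_sdiff.1 hu).1
    have hvP : v ∈ P := hJP hv
    have hdom : (u, v) ∈ xDom F Y P := by
      refine Finset.mem_filter.2 ⟨mem_univ _, hadj, huW, ?_, Or.inr hvP⟩
      exact Finset.mem_union_right _ hvP
    have hdg : Dg u v := hDg2 u v hdom harc
    exact (Finset.mem_sdiff.1 hu).2 (hpre u v hv hdg)
  have hRmem : ∀ u v, F.Adj u v → ArcT H w T (φ u) (φ v) → (u, v) ∈ R := by
    intro u v huv harc
    exact Finset.mem_filter.2 ⟨mem_univ _, huv, harc⟩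
  have hcap := capacity_w (F := F) hw hs hdj hEarc hφ hhom hRmem
  -- connectivity
  set R0 : Finset (α × α) := univ.filter (fun d => F.Adj d.1 d.2) with hR0
  have hconn : ∀ D : Finset α, D.Nonempty → D ⊆ J → D ≠ J → ∃ u ∈ D, ∃ v ∈ J \ D, (u, v) ∈ R0 := by
    intro D hDne hDJ hDnJ
    by_contra hcon
    push Not at hcon
    refine hDnJ (hminJ D hDJ hDne ?_)
    intro u v hv hdg
    have huJ : u ∈ J := hpre u v (hDJ hv) hdg
    by_contra huD
    have hadj : F.Adj v u := (hDgF u v hdg).symm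
    exact hcon v hv u (Finset.mem_sdiff.2 ⟨huJ, huD⟩) (Finset.mem_filter.2 ⟨mem_univ _, hadj⟩)
  have hRF0 : ∀ u v, (u, v) ∈ R0 → F.Adj u v := fun u v h => (Finset.mem_filter.1 h).2
  have hae := card_le_eIn (F := F) hRF0 hne hconn
  have hm := low_card_lt hq0 hqe hD hlow
  have hmE : eT F W J = (newE F E J).card := rfl
  rw [hmE] at hm ⊢
  set a := J.card with ha
  set m := (newE F E J).card with hm'
  set e := (eIn F J).card with he
  have h1 : (m - e) + a ≤ m + 1 := by omega
  have h2 : T * ((m - e) + a) ≤ T * (m + 1) := Nat.mul_le_mul_left _ h1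
  rw [Nat.mul_add] at h2
  omega

end Vale.Agent.Lib.P064
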