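import Vale.Agent.Lib.P064X.Comp
import Vale.Agent.Lib.P064Sep.Pre

/-!
The count over a connected low set, with the general largeness hypothesis.
-/

open Finset

namespace Vale.Agent.Lib.P064

open scoped Classical

open Vale.Agent.Lib.P064N

variable {V α : Type} [Fintype V] [Fintype α] {H : SimpleGraph V} {F : SimpleGraph α} {n : ℕ}
  {q : ℝ}

/-- The count over a connected low set. `exists_slots` for `ArcT H w T`; `card_le_pat` with
`Dm = xDom F Y P`, `xDom_card`. For a pattern `π`: `Dg u v := π (u,v) ≠ none`,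
`lab u v := (π (u,v)).getD ⟨0,_⟩`; if the family is nonempty every adjacent pair in `P` has an arc in
some direction (`w a b + w b a = M ≥ 2 T`). `xcomp_pi` with `Yc` = images of `P` (`xcand_card`),
`m = θ` (arcs into `a` are adjacent pairs, `dW` counts them), `xminPre_large` + `hμ2` for `hpre`.
Then `xcomp_num` with `e = |newE F Y P|`, `p₀ = |P|`, and `|P| ≤ e` (`low_card_lt` if `Low`). -/
theorem ycomp_count (hG : GoodDensity n q H) (hn : 1 ≤ n) (hq0 : 0 < q) (hqe : q ≤ Real.exp (-1))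
    (hD : 1 ≤ (n : ℝ) * q) (hL : 1 ≤ Real.log n)
    {w : V → V → ℕ} {M c T : ℕ} (hw : ∀ a b, H.Adj a b → w a b + w b a = M)
    (hs : ∀ a, ∑ b, w a b ≤ c) (hT : 1 ≤ T) (h2T : 2 * T ≤ M)
    {D' : ℕ} (hD1 : 1 ≤ D') (hD2 : c / T ≤ D')
    {μ : ℝ} (hμ : 0 < μ) (hμ3 : ∀ j m : ℕ, 1 ≤ j → (n : ℝ) ^ j * (Real.exp 1 * q) ^ m < 1 →
      M * m + T * j ≤ c * j + T * (m + 1) → μ ≤ (j : ℝ))
    {θ : ℝ} (hθ : 1 ≤ θ)
    {Y P : Finset α} (hdisj : Disjoint P Y) (hne : P.Nonempty)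
    (hconn : ∀ D ⊆ P, D.Nonempty → D ≠ P → ∃ u ∈ D, ∃ v ∈ P \ D, F.Adj u v)
    (hlow : ∀ J' ⊆ P, J'.Nonempty → Low n q F (Y ∪ P) J')
    (hdeg : ∀ v ∈ P, (dW F (Y ∪ P) v : ℝ) ≤ θ)
    {S : Finset (α → V)} (hinj : ∀ φ ∈ S, Function.Injective φ)
    (hhom : ∀ φ ∈ S, ∀ u v, F.Adj u v → H.Adj (φ u) (φ v))
    {φ₀ : α → V} (hagree : ∀ φ ∈ S, ∀ y ∈ Y, φ y = φ₀ y) :
    ((S.image (proj (Y ∪ P))).card : ℝ) ≤
      xCc D' ^ (newE F Y P).card * Real.exp ((P.card : ℝ) * Real.log (Real.log n * θ) / μ) := by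
  have hL0 : 0 ≤ Real.log n := by linarith
  have hD'0 : (1 : ℝ) ≤ (D' : ℝ) := by exact_mod_cast hD1
  set e := (newE F Y P).card with he
  -- lower degree bound and `|P| ≤ e`
  have hdeg2 : ∀ w ∈ P, 2 ≤ dW F (Y ∪ P) w := by
    intro w hw'
    have h1 := low_card_lt hq0 hqe hD (hlow {w} (by simpa using hw') ⟨w, by simp⟩)
    simpa [dW] using h1
  have hPe : P.card ≤ e := by
    have h1 := low_card_lt hq0 hqe hD (hlow P (Finset.Subset.refl _) hne)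
    have h2 : eT F (Y ∪ P) P = e := by
      unfold eT
      rw [union_sdiff_of_disj hdisj]
    omega
  -- the candidates
  have hYcard := xcand_card hG hn hq0 hqe hdisj hlow hdeg2 hinj hhom hagree
  set Yc := S.biUnion fun φ => P.image φ with hYc
  -- slots
  have hout : ∀ a, (univ.filter fun b => ArcT H w T a b).card ≤ D' :=
    fun a => (arcT_out hs hT a).trans hD2
  obtain ⟨sl, succ, hsucc⟩ := exists_slots (ArcT H w T) hD1 hout
  set Dm := xDom F Y P with hDm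
  have hDmc : Dm.card ≤ 2 * e := xDom_card F hdisj
  set B : ℝ := (2 * (D' : ℝ)) ^ P.card * Real.exp (2 * (e : ℝ)) *
    Real.exp ((P.card : ℝ) * Real.log (Real.log n * θ) / μ) with hB
  have hB0 : 0 ≤ B := by
    have : (0 : ℝ) ≤ 2 * (D' : ℝ) := by linarith
    positivity
  have hpat : ∀ π : α × α → Option (Fin D'),
      (((S.filter fun φ => xpat (ArcT H w T) sl Dm φ = π).image (proj (Y ∪ P))).card : ℝ) ≤ B := by
    intro π
    set Sπ := S.filter fun φ => xpat (ArcT H w T) sl Dm φ = π with hSπ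
    rcases Sπ.eq_empty_or_nonempty with hemp | ⟨φ₁, hφ₁⟩
    · rw [hemp]; simpa using hB0
    have hφ₁S : φ₁ ∈ S := (Finset.mem_filter.1 hφ₁).1
    have hπ₁ : xpat (ArcT H w T) sl Dm φ₁ = π := (Finset.mem_filter.1 hφ₁).2
    let Dg : α → α → Prop := fun u v => π (u, v) ≠ none
    let lab : α → α → Fin D' := fun u v => (π (u, v)).getD ⟨0, by omega⟩
    -- the arcs of the pattern
    have hDgiff : ∀ φ ∈ Sπ, ∀ u v, Dg u v ↔ (u, v) ∈ Dm ∧ ArcT H w T (φ u) (φ v) := by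
      intro φ hφ u v
      have h1 : xpat (ArcT H w T) sl Dm φ = π := (Finset.mem_filter.1 hφ).2
      simp only [Dg, ← h1, xpat]
      by_cases h2 : (u, v) ∈ Dm ∧ ArcT H w T (φ u) (φ v)
      · simp [h2]
      · simp only [h2, if_false, ne_eq, not_true_eq_false, false_iff]
    have hfol : ∀ φ ∈ Sπ, ∀ u v, Dg u v → φ v = succ (φ u) (lab u v) := by
      intro φ hφ u v huv
      have h1 : xpat (ArcT H w T) sl Dm φ = π := (Finset.mem_filter.1 hφ).2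
      obtain ⟨h2, h3⟩ := (hDgiff φ hφ u v).1 huv
      have h4 : π (u, v) = some (sl (φ u) (φ v)) := by
        rw [← h1]; simp only [xpat]; simp [h2, h3]
      simp only [lab, h4, Option.getD_some]
      exact (hsucc _ _ h3).symm
    have hDgm : ∀ u v, Dg u v → (u, v) ∈ Dm := fun u v h => ((hDgiff φ₁ hφ₁ u v).1 h).1
    have hDmmem : ∀ u v, (u, v) ∈ Dm → F.Adj u v ∧ u ∈ Y ∪ P ∧ v ∈ Y ∪ P :=
      fun u v h => by
        have := (Finset.mem_filter.1 h).2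
        exact ⟨this.1, this.2.1, this.2.2.1⟩
    have hDgF : ∀ u v, Dg u v → F.Adj u v := fun u v h => (hDmmem u v (hDgm u v h)).1
    have hsuppo : ∀ u v, Dg u v → (u ∈ P ∨ u ∈ Y) ∧ (v ∈ P ∨ v ∈ Y) := by
      intro u v h
      obtain ⟨_, h2, h3⟩ := hDmmem u v (hDgm u v h)
      rw [Finset.mem_union] at h2 h3
      exact ⟨h2.symm, h3.symm⟩
    have hconn' : ∀ D₁ ⊆ P, D₁.Nonempty → D₁ ≠ P → ∃ u ∈ D₁, ∃ v ∈ P \ D₁, Dg u v ∨ Dg v u := by
      intro D₁ h1 h2 h3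
      obtain ⟨u, hu, v, hv, huv⟩ := hconn D₁ h1 h2 h3
      refine ⟨u, hu, v, hv, ?_⟩
      have huP : u ∈ P := h1 hu
      have hvP : v ∈ P := (Finset.mem_sdiff.1 hv).1
      have hH : H.Adj (φ₁ u) (φ₁ v) := hhom φ₁ hφ₁S u v huv
      have hsum := hw _ _ hH
      have hm1 : (u, v) ∈ Dm := Finset.mem_filter.2 ⟨mem_univ _, huv,
        Finset.mem_union_right _ huP, Finset.mem_union_right _ hvP, Or.inl huP⟩
      have hm2 : (v, u) ∈ Dm := Finset.mem_filter.2 ⟨mem_univ _, huv.symm,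
        Finset.mem_union_right _ hvP, Finset.mem_union_right _ huP, Or.inl hvP⟩
      by_cases hT1 : T ≤ w (φ₁ u) (φ₁ v)
      · exact Or.inl ((hDgiff φ₁ hφ₁ u v).2 ⟨hm1, hH, hT1⟩)
      · refine Or.inr ((hDgiff φ₁ hφ₁ v u).2 ⟨hm2, hH.symm, ?_⟩)
        omega
    have hpre : ∀ J ⊆ P, XMinPre Dg J → μ ≤ (J.card : ℝ) := by
      intro J hJ hmin
      refine hμ3 J.card (eT F (Y ∪ P) J) (Finset.card_pos.2 hmin.1) (hlow J hJ hmin.1) ?_
      refine yminPre_large hw hs hq0 hqe hD hdisj hJ hDgF (hinj φ₁ hφ₁S)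
        (hhom φ₁ hφ₁S) ?_ hmin (hlow J hJ hmin.1)
      intro u v h1 h2
      exact (hDgiff φ₁ hφ₁ u v).2 ⟨h1, h2⟩
    have hindeg : ∀ a ∈ P, ((univ.filter fun b => Dg b a).card : ℝ) ≤ θ := by
      intro a ha
      refine le_trans ?_ (hdeg a ha)
      have haW : a ∈ Y ∪ P := Finset.mem_union_right _ ha
      rw [dW_eq_nbW haW]
      have hsub : (univ.filter fun b => Dg b a) ⊆ P064S.nbW F (Y ∪ P) a := by
        intro b hb
        have hb' := (Finset.mem_filter.1 hb).2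
        obtain ⟨h1, h2, _⟩ := hDmmem b a (hDgm b a hb')
        exact Finset.mem_filter.2 ⟨h2, h1.symm⟩
      exact_mod_cast Finset.card_le_card hsub
    have hagreeπ : ∀ φ ∈ Sπ, ∀ φ' ∈ Sπ, ∀ y ∈ Y, φ y = φ' y := by
      intro φ hφ φ' hφ' y hy
      rw [hagree φ (Finset.mem_filter.1 hφ).1 y hy, hagree φ' (Finset.mem_filter.1 hφ').1 y hy]
    have hYcπ : ∀ φ ∈ Sπ, ∀ p ∈ P, φ p ∈ Yc := by
      intro φ hφ p hp
      exact Finset.mem_biUnion.2 ⟨φ, (Finset.mem_filter.1 hφ).1, Finset.mem_image_of_mem _ hp⟩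
    obtain ⟨ε, T', hε, hT', hbound⟩ := xcomp_pi hD1 succ (Y := Y) (P := P) (μ := μ) (S := Sπ)
      (Yc := Yc) (m := θ) (Dg := Dg) (lab := lab) (by linarith) hμ hfol
      (fun φ hφ => hinj φ (Finset.mem_filter.1 hφ).1) hagreeπ hYcπ hsuppo hne hconn' hpre
      (fun a ha => by convert hindeg a ha)
    refine hbound.trans ?_
    have h2D : (0 : ℝ) ≤ 2 * (D' : ℝ) := by linarith
    have hnum := xcomp_num (Y₀ := (Yc.card : ℝ)) (e := (e : ℝ)) (L := Real.log n) (θ := θ) (μ := μ)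
      (p₀ := (P.card : ℝ)) (D' := 2 * (D' : ℝ)) (ε := ε) (T := T') (p := P.card)
      (Nat.cast_nonneg _) hYcard (Nat.cast_nonneg _) hL hθ hμ hε hT' h2D
    exact hnum
  have hmain := card_le_pat (ArcT H w T) sl Dm S (Y ∪ P) hB0 hpat
  refine hmain.trans ?_
  have hD1p : (1 : ℝ) ≤ (D' : ℝ) + 1 := by linarith
  have h2D1 : (1 : ℝ) ≤ 2 * (D' : ℝ) := by linarith
  have h1 : ((D' : ℝ) + 1) ^ Dm.card ≤ (((D' : ℝ) + 1) ^ 2) ^ e := by
    rw [← pow_mul]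
    exact pow_le_pow_right₀ hD1p hDmc
  have h2 : (2 * (D' : ℝ)) ^ P.card ≤ (2 * (D' : ℝ)) ^ e := pow_le_pow_right₀ h2D1 hPe
  have h3 : xCc D' ^ e = (((D' : ℝ) + 1) ^ 2) ^ e * (2 * (D' : ℝ)) ^ e * Real.exp (2 * (e : ℝ)) := by
    unfold xCc
    rw [mul_pow, mul_pow, ← Real.exp_nat_mul]
    congr 2
    ring
  rw [h3, hB]
  have h5 : (0 : ℝ) ≤ ((D' : ℝ) + 1) ^ Dm.card := by positivity
  have h6 : (0 : ℝ) ≤ (2 * (D' : ℝ)) ^ P.card := by positivity
  calc ((D' : ℝ) + 1) ^ Dm.card * ((2 * (D' : ℝ)) ^ P.card * Real.exp (2 * (e : ℝ)) *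
        Real.exp ((P.card : ℝ) * Real.log (Real.log n * θ) / μ))
      ≤ (((D' : ℝ) + 1) ^ 2) ^ e * ((2 * (D' : ℝ)) ^ e * Real.exp (2 * (e : ℝ)) *
        Real.exp ((P.card : ℝ) * Real.log (Real.log n * θ) / μ)) := by
          gcongr
    _ = _ := by ring

end Vale.Agent.Lib.P064
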