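import Vale.Agent.Lib.P064X.XNum

/-!
The parameters: the weights, and the separation of `m lam` from multiples of `log n`.
-/

open Finset

namespace Vale.Agent.Lib.P064

/-- The standing separation: `m lam` stays `δ L` away from `j L` for `1 ≤ j < μ₀`. -/
def YSep (n : ℕ) (q δ : ℝ) (μ₀ : ℕ) : Prop :=
  ∀ j m : ℕ, 1 ≤ j → j < μ₀ →
    δ * Real.log n ≤ |(m : ℝ) * (- Real.log q) - (j : ℝ) * Real.log n|

/-- The arithmetic of the largeness of a source piece. -/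
lemma y_mu_num {x lam M T c j m δ τ μ₀ : ℝ} (hM : 0 < M) (hT0 : 0 ≤ T) (hτ : T ≤ τ * M)
    (hτ0 : 0 ≤ τ) (hτ' : τ * (μ₀ + 1) ≤ δ / 8) (hδ0 : 0 < δ) (hδ1 : δ ≤ 1)
    (hlam0 : 0 < lam) (hlamx : lam ≤ x) (hcM : c * lam ≤ (x + 1) * M)
    (hcap : M * m + T * j ≤ c * j + T * (m + 1)) (hj0 : 1 ≤ j) (hj : j + 1 ≤ μ₀)
    (h1 : j * x + δ * x ≤ m * lam) (hx : 2 * μ₀ ≤ δ * x) (hx0 : 0 < x) (hm0 : 0 ≤ m) : False := by
  have hj00 : 0 ≤ j := by linarith
  have hμ0 : 0 ≤ μ₀ := by linarith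
  have A : M * (m * lam) + T * j * lam ≤ c * lam * j + T * (m + 1) * lam := by
    have := mul_le_mul_of_nonneg_right hcap hlam0.le
    nlinarith
  have B : c * lam * j ≤ (x + 1) * M * j := mul_le_mul_of_nonneg_right hcM hj00
  have C : T * (m + 1) * lam ≤ τ * M * ((m + 1) * lam) := by
    have h2 : 0 ≤ (m + 1) * lam := by positivity
    calc T * (m + 1) * lam = T * ((m + 1) * lam) := by ring
      _ ≤ _ := mul_le_mul_of_nonneg_right hτ h2
  have D0 : 0 ≤ T * j * lam := by positivity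
  have D : M * (m * lam) ≤ M * ((x + 1) * j + τ * (m * lam + lam)) := by
    have h3 : τ * M * ((m + 1) * lam) = M * (τ * (m * lam + lam)) := by ring
    have h4 : (x + 1) * M * j = M * ((x + 1) * j) := by ring
    have h5 : M * ((x + 1) * j + τ * (m * lam + lam)) =
        M * ((x + 1) * j) + M * (τ * (m * lam + lam)) := by ring
    rw [h5]
    linarith
  have E : m * lam ≤ (x + 1) * j + τ * (m * lam + lam) := le_of_mul_le_mul_left D hM
  set Y := m * lam with hY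
  -- `τ ≤ δ / 16 ≤ 1 / 16`
  have hτ1 : τ ≤ 1 / 16 := by
    have h6 : τ * 2 ≤ τ * (μ₀ + 1) := by
      apply mul_le_mul_of_nonneg_left _ hτ0
      linarith
    linarith
  have F : (1 - τ) * (j * x + δ * x) ≤ (1 - τ) * Y :=
    mul_le_mul_of_nonneg_left h1 (by linarith)
  have G : τ * lam ≤ τ * x := mul_le_mul_of_nonneg_left hlamx hτ0
  have I : τ * (j + δ + 1) * x ≤ (δ / 8) * x := by
    apply mul_le_mul_of_nonneg_right _ hx0.le
    have h7 : τ * (j + δ + 1) ≤ τ * (μ₀ + 1) := by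
      apply mul_le_mul_of_nonneg_left _ hτ0
      linarith
    linarith
  have J : δ * x ≤ j + τ * (j + δ + 1) * x := by
    nlinarith
  have hδx : 0 < δ * x := by positivity
  nlinarith

/-- From `exists_weights` with `τ₀ = δ / (16 (μ₀ + 1))`. -/
theorem y_params {V : Type} [Fintype V] {H : SimpleGraph V} {n : ℕ} {q δ : ℝ} {μ₀ : ℕ} (hn : 1 ≤ n)
    (hq0 : 0 < q) (hqe : q ≤ Real.exp (-1)) (hG : GoodDensity n q H) (hD : 1 ≤ (n : ℝ) * q)
    (hL : 1 ≤ Real.log n) (hδ0 : 0 < δ) (hδ1 : δ ≤ 1) (hμ₀ : 1 ≤ μ₀)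
    (hlam : δ * Real.log n ≤ - Real.log q) (hsep : YSep n q δ μ₀)
    (hbig : 2 * (μ₀ : ℝ) ≤ δ * Real.log n) :
    ∃ (w : V → V → ℕ) (M c T : ℕ), (∀ a b, H.Adj a b → w a b + w b a = M) ∧
      (∀ a, ∑ b, w a b ≤ c) ∧ 1 ≤ T ∧ 2 * T ≤ M ∧
      c / T ≤ ⌈(1 / δ + 1) / (δ / (16 * ((μ₀ : ℝ) + 1)))⌉₊ ∧
      (∀ j m : ℕ, 1 ≤ j → (n : ℝ) ^ j * (Real.exp 1 * q) ^ m < 1 →
        M * m + T * j ≤ c * j + T * (m + 1) → (μ₀ : ℝ) ≤ (j : ℝ)) := by
  have hμ1 : (1 : ℝ) ≤ μ₀ := by exact_mod_cast hμ₀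
  have hμp : (0 : ℝ) < (μ₀ : ℝ) + 1 := by linarith
  have hτ₀0 : 0 < δ / (16 * ((μ₀ : ℝ) + 1)) := by positivity
  have hτ₀1 : δ / (16 * ((μ₀ : ℝ) + 1)) ≤ 1 / 16 := by
    rw [div_le_div_iff₀ (by positivity) (by norm_num)]
    nlinarith
  obtain ⟨w, M, c, T, hM1, hT1, hw, hs, hTM, hcM, hcT⟩ :=
    Vale.Agent.Lib.P064N.exists_weights (H := H) hn hq0 hqe hG hτ₀0 hτ₀1
  have hn1 : (1 : ℝ) ≤ n := by exact_mod_cast hn
  have hn0 : (0 : ℝ) < n := by linarith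
  have hL0 : 0 < Real.log n := by linarith
  have hQ1 : 1 ≤ - Real.log q := by
    have := Real.log_le_log hq0 hqe
    rw [Real.log_exp] at this
    linarith
  have hQ0 : 0 < - Real.log q := by linarith
  have hMpos : (0 : ℝ) < M := by exact_mod_cast hM1
  have hg : Real.log ((n : ℝ) * q) = Real.log n + Real.log q :=
    Real.log_mul hn0.ne' hq0.ne'
  have hg0 : 0 ≤ Real.log ((n : ℝ) * q) := Real.log_nonneg hD
  obtain ⟨τ, hτdef⟩ : ∃ τ : ℝ, τ = 2 * (δ / (16 * ((μ₀ : ℝ) + 1))) := ⟨_, rfl⟩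
  have hτ0 : 0 ≤ τ := by rw [hτdef]; positivity
  have hTτ : (T : ℝ) ≤ τ * M := by
    rw [div_le_iff₀ hMpos] at hTM
    rw [hτdef]
    exact hTM
  have hτμ : τ * ((μ₀ : ℝ) + 1) ≤ δ / 8 := by
    rw [hτdef]
    have h : 2 * (δ / (16 * ((μ₀ : ℝ) + 1))) * ((μ₀ : ℝ) + 1) = δ / 8 := by
      field_simp
      ring
    rw [h]
  have hτ1 : τ ≤ 1 / 8 := by
    rw [hτdef]
    linarith
  refine ⟨w, M, c, T, hw, hs, hT1, ?_, ?_, ?_⟩
  · have : (2 : ℝ) * T ≤ M := by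
      have h0 : (0 : ℝ) ≤ T := Nat.cast_nonneg _
      nlinarith
    exact_mod_cast this
  · have h1 : Real.log n / (- Real.log q) ≤ 1 / δ := by
      rw [div_le_div_iff₀ hQ0 hδ0]
      linarith
    have h2 : (Real.log n / (- Real.log q) + 1) / (δ / (16 * ((μ₀ : ℝ) + 1))) ≤
        (1 / δ + 1) / (δ / (16 * ((μ₀ : ℝ) + 1))) := by
      apply div_le_div_of_nonneg_right _ hτ₀0.le
      linarith
    have h3 := hcT.trans h2
    have h4 := h3.trans (Nat.le_ceil _)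
    exact_mod_cast h4
  · intro j m hj1 hlow hcap
    by_contra hcon
    push Not at hcon
    have hjlt : j < μ₀ := by exact_mod_cast hcon
    have hj1R : (1 : ℝ) ≤ j := by exact_mod_cast hj1
    have hjμ : (j : ℝ) + 1 ≤ μ₀ := by exact_mod_cast hjlt
    have hm0 : (0 : ℝ) ≤ m := Nat.cast_nonneg _
    have hcap' : (M : ℝ) * m + T * j ≤ c * j + T * (m + 1) := by exact_mod_cast hcap
    have hc1 : (c : ℝ) * (- Real.log q) ≤ (Real.log n + 1) * M := by
      rw [div_mul_eq_mul_div, div_le_iff₀ hMpos] at hcM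
      exact hcM
    have hlamx : - Real.log q ≤ Real.log n := by
      rw [hg] at hg0
      linarith
    -- low: `m lam > j L`
    have hlog : (j : ℝ) * Real.log n + (m : ℝ) * (1 + Real.log q) < 0 := by
      have h5 : 0 < (n : ℝ) ^ j * (Real.exp 1 * q) ^ m := by positivity
      have h6 := Real.log_lt_log h5 hlow
      rw [Real.log_one, Real.log_mul (by positivity) (by positivity), Real.log_pow, Real.log_pow,
        Real.log_mul (Real.exp_pos 1).ne' hq0.ne', Real.log_exp] at h6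
      exact h6
    have hpos : 0 < (m : ℝ) * (- Real.log q) - (j : ℝ) * Real.log n := by nlinarith
    have hs1 := hsep j m hj1 hjlt
    rw [abs_of_pos hpos] at hs1
    exact y_mu_num (x := Real.log n) (lam := - Real.log q) (M := M) (T := T) (c := c) (j := j)
      (m := m) (δ := δ) (τ := τ) (μ₀ := μ₀) hMpos (Nat.cast_nonneg _) hTτ hτ0 hτμ hδ0 hδ1 hQ0 hlamx
      hc1 hcap' hj1R hjμ (by linarith) hbig hL0 hm0

/-- A set of fewer than `μ₀` vertices which is not low: the number of its edges is bounded, and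
its room is at least `n^δ`. -/
theorem y_notlow {n : ℕ} {q δ : ℝ} {μ₀ j m : ℕ} (hn : 1 ≤ n) (hq0 : 0 < q)
    (hL : 1 ≤ Real.log n) (hδ0 : 0 < δ) (hδ1 : δ ≤ 1) (hμ₀ : 1 ≤ μ₀)
    (hlam : δ * Real.log n ≤ - Real.log q) (hsep : YSep n q δ μ₀)
    (hbig : 4 * (μ₀ : ℝ) ≤ δ ^ 2 * Real.log n) (hj1 : 1 ≤ j) (hj : j < μ₀)
    (hτ : 1 ≤ (n : ℝ) ^ j * (Real.exp 1 * q) ^ m) :
    (m : ℝ) ≤ 2 * μ₀ / δ ∧ Real.exp (δ * Real.log n) ≤ (n : ℝ) ^ j * q ^ m := by
  have hn1 : (1 : ℝ) ≤ n := by exact_mod_cast hn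
  have hn0 : (0 : ℝ) < n := by linarith
  have hL0 : 0 < Real.log n := by linarith
  have hμ1 : (1 : ℝ) ≤ μ₀ := by exact_mod_cast hμ₀
  have hjR : (j : ℝ) + 1 ≤ μ₀ := by exact_mod_cast hj
  have hj0 : (0 : ℝ) ≤ j := Nat.cast_nonneg _
  have hm0 : (0 : ℝ) ≤ m := Nat.cast_nonneg _
  have hlog : 0 ≤ (j : ℝ) * Real.log n + (m : ℝ) * (1 + Real.log q) := by
    have h1 := Real.log_nonneg hτ
    rw [Real.log_mul (by positivity) (by positivity), Real.log_pow, Real.log_pow,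
      Real.log_mul (Real.exp_pos 1).ne' hq0.ne', Real.log_exp] at h1
    exact h1
  have hδ2 : δ ^ 2 ≤ δ := by nlinarith
  have hδL : δ ^ 2 * Real.log n ≤ δ * Real.log n := mul_le_mul_of_nonneg_right hδ2 hL0.le
  have hlam2 : δ * Real.log n / 2 ≤ - Real.log q - 1 := by nlinarith
  have hδLpos : 0 < δ * Real.log n := by positivity
  have hmb : (m : ℝ) * (δ * Real.log n / 2) ≤ (j : ℝ) * Real.log n := by
    have h2 : (m : ℝ) * (δ * Real.log n / 2) ≤ (m : ℝ) * (- Real.log q - 1) :=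
      mul_le_mul_of_nonneg_left hlam2 hm0
    nlinarith
  have hm2 : (m : ℝ) * δ ≤ 2 * j := by
    have h3 : ((m : ℝ) * δ) * (Real.log n / 2) ≤ (j : ℝ) * Real.log n := by
      calc ((m : ℝ) * δ) * (Real.log n / 2) = (m : ℝ) * (δ * Real.log n / 2) := by ring
        _ ≤ _ := hmb
    have h4 : ((m : ℝ) * δ) * (Real.log n / 2) ≤ (2 * j) * (Real.log n / 2) := by
      calc _ ≤ (j : ℝ) * Real.log n := h3
        _ = _ := by ring
    exact le_of_mul_le_mul_right h4 (by linarith)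
  have hm3 : (m : ℝ) ≤ 2 * μ₀ / δ := by
    rw [le_div_iff₀ hδ0]
    linarith
  refine ⟨hm3, ?_⟩
  -- `m < δ L`
  have hm4 : (m : ℝ) < δ * Real.log n := by
    have h5 : 2 * (μ₀ : ℝ) / δ < δ * Real.log n := by
      rw [div_lt_iff₀ hδ0]
      nlinarith
    linarith
  have hup : (m : ℝ) * (- Real.log q) - (j : ℝ) * Real.log n < δ * Real.log n := by
    nlinarith
  have hs1 := hsep j m hj1 hj
  have hneg : (j : ℝ) * Real.log n - (m : ℝ) * (- Real.log q) ≥ δ * Real.log n := by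
    rcases le_abs.1 hs1 with h | h
    · linarith
    · linarith
  have heq : (n : ℝ) ^ j * q ^ m = Real.exp ((j : ℝ) * Real.log n - (m : ℝ) * (- Real.log q)) := by
    have h6 : Real.exp ((j : ℝ) * Real.log n - (m : ℝ) * (- Real.log q)) =
        Real.exp ((j : ℝ) * Real.log n) * Real.exp ((m : ℝ) * Real.log q) := by
      rw [← Real.exp_add]
      congr 1
      ring
    rw [h6, Real.exp_nat_mul, Real.exp_nat_mul, Real.exp_log hn0, Real.exp_log hq0]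
  rw [heq]
  exact Real.exp_le_exp.2 hneg

end Vale.Agent.Lib.P064
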