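import Vale.Agent.Lib.P064X.Pinned
import Vale.Agent.Lib.P064Sep.Comps

/-!
The count through a pinned vertex, with the general largeness hypothesis.
-/

open Finset

namespace Vale.Agent.Lib.P064

open scoped Classical

open Vale.Agent.Lib.P064N

variable {V α : Type} [Fintype V] [Fintype α] {H : SimpleGraph V} {F : SimpleGraph α} {n : ℕ}
  {q : ℝ}

/-- All maps agree on `A`: the restrictions to `A ∪ Z` number at most `(card V)^|Z|`. -/
private lemma y_card_image_proj_agree {S : Finset (α → V)} {A Z : Finset α} {φ₂ : α → V}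
    (h : ∀ φ ∈ S, ∀ a ∈ A, φ a = φ₂ a) :
    (S.image (proj (A ∪ Z))).card ≤ (Fintype.card V) ^ Z.card := by
  let g : (↥Z → V) → (α → Option V) := fun f a =>
    if h : a ∈ Z then some (f ⟨a, h⟩) else if a ∈ A then some (φ₂ a) else none
  have hsub : S.image (proj (A ∪ Z)) ⊆ (univ : Finset (↥Z → V)).image g := by
    intro ψ hψ
    obtain ⟨φ, hφ, rfl⟩ := Finset.mem_image.1 hψ
    refine Finset.mem_image.2 ⟨fun z => φ z, mem_univ _, ?_⟩
    funext a
    simp only [g, proj, Finset.mem_union]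
    by_cases hz : a ∈ Z
    · simp [hz]
    · by_cases hA : a ∈ A
      · simp [hz, hA, h φ hφ a hA]
      · simp [hz, hA]
  calc _ ≤ _ := Finset.card_le_card hsub
    _ ≤ (univ : Finset (↥Z → V)).card := Finset.card_image_le
    _ = _ := by simp

/-- `Z = {v ∈ I.erase x : log n < dW v}`, `|Z| log n ≤ Σ dW ≤ 2 m` (`sum_dW_add_core`), so
`n^|Z| ≤ exp (2 m)`. `Y = insert x E ∪ Z`, `J = I.erase x \ Z`, `Y ∪ J = E ∪ I`.
`card_image_proj_step_real` with `D = Y`: the restrictions to `Y` number at most `n^|Z|` (all agree on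
`insert x E`, `card V ≤ n`), each fibre is bounded by `ycomps_count` with `θ = log n`,
`newE F Y J ⊆ newE F E I`. -/
theorem y_pinned (hG : GoodDensity n q H) (hn : 1 ≤ n) (hV : Fintype.card V ≤ n) (hq0 : 0 < q)
    (hqe : q ≤ Real.exp (-1)) (hD : 1 ≤ (n : ℝ) * q) (hL : 1 ≤ Real.log n)
    {w : V → V → ℕ} {M c T : ℕ} (hw : ∀ a b, H.Adj a b → w a b + w b a = M)
    (hs : ∀ a, ∑ b, w a b ≤ c) (hT : 1 ≤ T) (h2T : 2 * T ≤ M)
    {D' : ℕ} (hD1 : 1 ≤ D') (hD2 : c / T ≤ D')
    {μ : ℝ} (hμ : 0 < μ) (hμ3 : ∀ j m : ℕ, 1 ≤ j → (n : ℝ) ^ j * (Real.exp 1 * q) ^ m < 1 →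
      M * m + T * j ≤ c * j + T * (m + 1) → μ ≤ (j : ℝ))
    {E I : Finset α} (hdisj : Disjoint I E)
    (hmin : ∀ J ⊆ I, J.Nonempty → J ≠ I → Low n q F (E ∪ I) J)
    {S : Finset (α → V)} (hinj : ∀ φ ∈ S, Function.Injective φ)
    (hhom : ∀ φ ∈ S, ∀ u v, F.Adj u v → H.Adj (φ u) (φ v))
    {φ₀ : α → V} (hagree : ∀ φ ∈ S, ∀ x ∈ E, φ x = φ₀ x) {x : α} (hx : x ∈ I) (y : V) :
    (((S.filter (fun φ => φ x = y)).image (proj (E ∪ I))).card : ℝ) ≤
      Real.exp (2 * ((newE F E I).card : ℝ)) * xCc D' ^ (newE F E I).card *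
        Real.exp ((I.card : ℝ) * Real.log (Real.log n * Real.log n) / μ) := by
  have hn0 : (0 : ℝ) < n := by exact_mod_cast hn
  have hxE : x ∉ E := Finset.disjoint_left.1 hdisj hx
  set L := Real.log n with hLdef
  set m := (newE F E I).card with hm
  set Z := (I.erase x).filter (fun v => L < (dW F (E ∪ I) v : ℝ)) with hZ
  set Y := insert x E ∪ Z with hY
  set J := I.erase x \ Z with hJ
  have hZI' : Z ⊆ I.erase x := Finset.filter_subset _ _
  have hZI : Z ⊆ I := hZI'.trans (Finset.erase_subset _ _)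
  have hYJ : Y ∪ J = E ∪ I := by
    ext a
    simp only [hY, hJ, Finset.mem_union, Finset.mem_insert, Finset.mem_sdiff, Finset.mem_erase]
    constructor
    · rintro (((rfl | h) | h) | ⟨⟨_, h⟩, _⟩)
      · exact Or.inr hx
      · exact Or.inl h
      · exact Or.inr (hZI h)
      · exact Or.inr h
    · rintro (h | h)
      · exact Or.inl (Or.inl (Or.inr h))
      · by_cases h1 : a = x
        · exact Or.inl (Or.inl (Or.inl h1))
        · by_cases h2 : a ∈ Z
          · exact Or.inl (Or.inr h2)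
          · exact Or.inr ⟨⟨h1, h⟩, h2⟩
  have hJY : Disjoint J Y := by
    rw [Finset.disjoint_left]
    intro a ha haY
    obtain ⟨h1, h2⟩ := Finset.mem_sdiff.1 ha
    obtain ⟨h3, h4⟩ := Finset.mem_erase.1 h1
    rcases Finset.mem_union.1 haY with h5 | h5
    · rcases Finset.mem_insert.1 h5 with h6 | h6
      · exact h3 h6
      · exact Finset.disjoint_left.1 hdisj h4 h6
    · exact h2 h5
  -- the number of large-degree vertices
  have hsum := sum_dW_add_core (F := F) E I hdisj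
  have hZL : (Z.card : ℝ) * L ≤ 2 * m := by
    have h1 : ∑ _v ∈ Z, L ≤ ∑ v ∈ Z, (dW F (E ∪ I) v : ℝ) :=
      Finset.sum_le_sum (fun v hv => (Finset.mem_filter.1 hv).2.le)
    have h2 : ∑ v ∈ Z, (dW F (E ∪ I) v : ℝ) ≤ ∑ v ∈ I, (dW F (E ∪ I) v : ℝ) :=
      Finset.sum_le_sum_of_subset_of_nonneg hZI (fun _ _ _ => Nat.cast_nonneg _)
    have h3 : (∑ v ∈ I, (dW F (E ∪ I) v : ℝ)) ≤ 2 * m := by
      have h4 : ∑ w ∈ I, dW F (E ∪ I) w ≤ 2 * m := by omega
      exact_mod_cast h4
    simp only [Finset.sum_const, nsmul_eq_mul] at h1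
    linarith
  have hnZ : (n : ℝ) ^ Z.card ≤ Real.exp (2 * (m : ℝ)) := by
    have h1 : (n : ℝ) ^ Z.card = Real.exp ((Z.card : ℝ) * L) := by
      rw [Real.exp_nat_mul, hLdef, Real.exp_log hn0]
    rw [h1]
    exact Real.exp_le_exp.2 hZL
  -- the bound on one fibre
  have hXc1 : 1 ≤ xCc D' := one_le_xCc hD1
  have hlog0 : 0 ≤ Real.log (L * L) :=
    Real.log_nonneg (by nlinarith)
  set B : ℝ := xCc D' ^ m * Real.exp ((I.card : ℝ) * Real.log (L * L) / μ) with hB
  have hB0 : 0 ≤ B := by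
    have : 0 ≤ xCc D' ^ m := by positivity
    positivity
  have hsubYI : Y ⊆ E ∪ I := by
    rw [← hYJ]; exact Finset.subset_union_left
  have hstep := card_image_proj_step_real (S.filter (fun φ => φ x = y)) hsubYI hB0 (by
    intro φ₁ hφ₁
    have hφ₁' := Finset.mem_filter.1 hφ₁
    have hcount := ycomps_count (F := F) hG hn hq0 hqe hD hL hw hs hT h2T hD1 hD2 hμ hμ3
      (θ := L) hL J.card Y J le_rfl hJY
      (by
        intro J' hJ' hne
        rw [hYJ]
        refine hmin J' ?_ hne ?_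
        · intro a ha
          exact Finset.mem_of_mem_erase (Finset.mem_sdiff.1 (hJ' ha)).1
        · intro h
          have h1 := hJ' (h ▸ hx)
          exact (Finset.mem_erase.1 (Finset.mem_sdiff.1 h1).1).1 rfl)
      (by
        intro v hv
        rw [hYJ]
        obtain ⟨h1, h2⟩ := Finset.mem_sdiff.1 hv
        by_contra hcon
        exact h2 (Finset.mem_filter.2 ⟨h1, not_le.1 hcon⟩))
      (((S.filter (fun φ => φ x = y))).filter (fun φ => proj Y φ = proj Y φ₁))
      (fun φ hφ => hinj φ (Finset.mem_filter.1 (Finset.mem_filter.1 hφ).1).1)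
      (fun φ hφ => hhom φ (Finset.mem_filter.1 (Finset.mem_filter.1 hφ).1).1)
      φ₁
      (fun φ hφ a ha => proj_eq_apply ha (Finset.mem_filter.1 hφ).2)
    rw [hYJ] at hcount
    refine hcount.trans ?_
    have hsubE : newE F Y J ⊆ newE F E I := by
      intro e he
      induction e using Sym2.ind with
      | _ u v =>
        obtain ⟨h1, h2, h3, h4⟩ := mem_newE_pair.1 he
        have hmemU : ∀ a, (a ∈ Y ∨ a ∈ J) → (a ∈ E ∨ a ∈ I) := by
          intro a ha
          have : a ∈ Y ∪ J := Finset.mem_union.2 ha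
          rw [hYJ] at this
          exact Finset.mem_union.1 this
        refine mem_newE_pair.2 ⟨h1, hmemU u h2, hmemU v h3, ?_⟩
        rintro ⟨h5, h6⟩
        have hEY : E ⊆ Y := fun a ha =>
          Finset.mem_union_left _ (Finset.mem_insert_of_mem ha)
        exact h4 ⟨hEY h5, hEY h6⟩
    have hJI : J.card ≤ I.card :=
      Finset.card_le_card (fun a ha =>
        Finset.mem_of_mem_erase (Finset.mem_sdiff.1 ha).1)
    have h1 : xCc D' ^ (newE F Y J).card ≤ xCc D' ^ m :=
      pow_le_pow_right₀ hXc1 (Finset.card_le_card hsubE)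
    have h2 : Real.exp ((J.card : ℝ) * Real.log (L * L) / μ) ≤
        Real.exp ((I.card : ℝ) * Real.log (L * L) / μ) := by
      apply Real.exp_le_exp.2
      apply div_le_div_of_nonneg_right _ hμ.le
      exact mul_le_mul_of_nonneg_right (by exact_mod_cast hJI) hlog0
    exact mul_le_mul h1 h2 (Real.exp_pos _).le (by positivity))
  -- the restrictions to `Y`
  have hagree2 : ∀ φ ∈ S.filter (fun φ => φ x = y), ∀ a ∈ insert x E,
      φ a = Function.update φ₀ x y a := by
    intro φ hφ a ha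
    obtain ⟨h1, h2⟩ := Finset.mem_filter.1 hφ
    rcases Finset.mem_insert.1 ha with rfl | h3
    · simp [h2]
    · have h4 : a ≠ x := fun h => hxE (h ▸ h3)
      rw [Function.update_of_ne h4]
      exact hagree φ h1 a h3
  have hY1 : ((((S.filter (fun φ => φ x = y))).image (proj Y)).card : ℝ) ≤ (n : ℝ) ^ Z.card := by
    have h1 := y_card_image_proj_agree (Z := Z) hagree2
    have h2 : (Fintype.card V) ^ Z.card ≤ n ^ Z.card := Nat.pow_le_pow_left hV _
    exact_mod_cast h1.trans h2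
  have hE0 : 0 ≤ Real.exp (2 * (m : ℝ)) := (Real.exp_pos _).le
  calc _ ≤ B * _ := hstep
    _ ≤ B * Real.exp (2 * (m : ℝ)) :=
        mul_le_mul_of_nonneg_left (hY1.trans hnZ) hB0
    _ = _ := by rw [hB]; ring

end Vale.Agent.Lib.P064
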